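import Mathlib
import Vale.Agent.Lib.P105.Defs
import Vale.Agent.Lib.P105.Closure

/-!
# P105: where a singular non-Pisot Bernoulli convolution would have to live

`nu l` is the law of the random series `∑ ε_n l ^ n` with independent fair signs.

* the set of singular parameters is closed under powers (and absolute continuity passes to roots);
* a parameter `l` in `(1/2, 1)` with `nu l` singular and `1 / l` not Pisot has a power `l ^ k` with
  `1/2 < l ^ k`, `(l ^ k) ^ 2 ≤ 1/2`, `nu (l ^ k)` singular and `1 / l ^ k` not Pisot, unless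
  `1/2 < l ^ 2`, `l ^ 3 ≤ 1/2` and `1 / l ^ 2` is Pisot;
* hence the implication (singular implies Pisot) on the window `1/2 < l`, `l ^ 3 ≤ 1/2` gives it
  on all of `(1/2, 1)`.
-/

namespace Vale.Agent.Results.P105.Localise

open MeasureTheory
open Vale.Agent.Lib.P105

theorem result :
    (∀ l : ℝ, 0 < l → l < 1 → ∀ k : ℕ, 1 ≤ k →
      ((nu l ⟂ₘ (volume : Measure ℝ) → nu (l ^ k) ⟂ₘ (volume : Measure ℝ)) ∧
        (nu (l ^ k) ≪ (volume : Measure ℝ) → nu l ≪ (volume : Measure ℝ)))) ∧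
    (∀ l : ℝ, 1 / 2 < l → l < 1 → nu l ⟂ₘ (volume : Measure ℝ) → ¬ IsPisot l⁻¹ →
      ((∃ k : ℕ, 1 ≤ k ∧ 1 / 2 < l ^ k ∧ (l ^ k) ^ 2 ≤ 1 / 2 ∧
          nu (l ^ k) ⟂ₘ (volume : Measure ℝ) ∧ ¬ IsPisot (l ^ k)⁻¹) ∨
        (1 / 2 < l ^ 2 ∧ l ^ 3 ≤ 1 / 2 ∧ IsPisot (l ^ 2)⁻¹))) ∧
    ((∀ l : ℝ, 1 / 2 < l → l ^ 3 ≤ 1 / 2 → nu l ⟂ₘ (volume : Measure ℝ) → IsPisot l⁻¹) →
      ∀ l : ℝ, 1 / 2 < l → l < 1 → nu l ⟂ₘ (volume : Measure ℝ) → IsPisot l⁻¹) := by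
  refine ⟨?_, ?_, ?_⟩
  · intro l h0 h1 k hk
    exact ⟨sing_pow_of_sing l h0.le h1 k hk, ac_of_ac_pow l h0.le h1 k hk⟩
  · intro l hl h1 hs hP
    exact localise l hl h1 hs hP
  · intro H l hl h1 hs
    by_contra hP
    rcases localise l hl h1 hs hP with ⟨k, hk, w, q, hsk, hPk⟩ | ⟨_, c3, _⟩
    · apply hPk
      refine H _ w ?_ hsk
      have hle : l ^ k ≤ 1 := pow_le_one₀ (by linarith) h1.le
      have hnn : 0 ≤ (l ^ k) ^ 2 := by positivity
      have : (l ^ k) ^ 3 = (l ^ k) ^ 2 * l ^ k := by ring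
      rw [this]
      nlinarith
    · exact hP (H l hl c3 hs)

end Vale.Agent.Results.P105.Localise
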