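import Mathlib
import Vale.Agent.Lib.P105.Defs
import Vale.Agent.Lib.P105.Closure

/-!
# P105: a counterexample can be moved into the window `(1/2, 2^(-1/3)]`

If some `l` in `(1/2, 1)` has `nu l` singular and `1 / l` not Pisot, then some `m` with `1/2 < m` and
`m ^ 3 ≤ 1/2` has `nu m` singular and `1 / m` not Pisot; moreover `m` is a power of `l`.
-/

namespace Vale.Agent.Results.P105.Window

open MeasureTheory
open Vale.Agent.Lib.P105

theorem result (l : ℝ) (hl : 1 / 2 < l) (h1 : l < 1) (hs : nu l ⟂ₘ (volume : Measure ℝ))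
    (hP : ¬ IsPisot l⁻¹) :
    ∃ k : ℕ, 1 ≤ k ∧ 1 / 2 < l ^ k ∧ (l ^ k) ^ 3 ≤ 1 / 2 ∧
      nu (l ^ k) ⟂ₘ (volume : Measure ℝ) ∧ ¬ IsPisot (l ^ k)⁻¹ := by
  rcases localise l hl h1 hs hP with ⟨k, hk, w, q, hsk, hPk⟩ | ⟨_, c3, _⟩
  · refine ⟨k, hk, w, ?_, hsk, hPk⟩
    have hle : l ^ k ≤ 1 := pow_le_one₀ (by linarith) h1.le
    have hnn : 0 ≤ (l ^ k) ^ 2 := by positivity
    have : (l ^ k) ^ 3 = (l ^ k) ^ 2 * l ^ k := by ring
    rw [this]
    nlinarith
  · exact ⟨1, le_refl _, by simpa using hl, by simpa using c3, by simpa using hs,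
      by simpa using hP⟩

end Vale.Agent.Results.P105.Window
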